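import Vale.Agent.Lib.P074.Slab

namespace Vale.Agent.Results.P074.NotAdmissible

open Vale.Agent.Lib.P074

/-- For every `d ≥ 2`, no exponent `α > 1/3` is admissible. In particular `α = 1/2` is not
admissible, and the supremum of the admissible exponents is at most `1/3`. -/
theorem result (d : ℕ) (hd : 2 ≤ d) (α : ℝ) (hα : 1 / 3 < α) : ¬ Admissible d α :=
  not_admissible hd hα

end Vale.Agent.Results.P074.NotAdmissible
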