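import Vale.Agent.Lib.P074.Slab
import Vale.Agent.Lib.P074.Final

namespace Vale.Agent.Results.P074.Sharp

open Vale.Agent.Lib.P074

/-- For every `d ≥ 2`, the exponent `1/3` is admissible and no exponent above `1/3` is admissible:
the set of admissible exponents in `(0,1]` has greatest element `1/3`, so `α*_d = 1/3` and the
supremum is attained. -/
theorem result (d : ℕ) (hd : 2 ≤ d) :
    IsGreatest {α : ℝ | 0 < α ∧ α ≤ 1 ∧ Admissible d α} (1 / 3) ∧
      sSup {α : ℝ | 0 < α ∧ α ≤ 1 ∧ Admissible d α} = 1 / 3 := by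
  have h : IsGreatest {α : ℝ | 0 < α ∧ α ≤ 1 ∧ Admissible d α} (1 / 3) :=
    ⟨⟨by norm_num, by norm_num, admissible_one_third (by omega)⟩, fun α hα => by
      by_contra hlt
      exact not_admissible hd (not_le.1 hlt) hα.2.2⟩
  exact ⟨h, h.csSup_eq⟩

end Vale.Agent.Results.P074.Sharp
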